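import Vale.Agent.P159.T1.H254.UWDefs
import Mathlib.Combinatorics.SetFamily.FourFunctions

/-!
The connectivity lemma (P159, plan 106 (2)): for integer heights on a finite graph with even
log-concave kernels, zero at the vertices of `P`, and `ρ₁ ≥ 0` carried by `A`, `ρ₂ ≥ 0` carried
by `B`,

  `E[exp(ρ₁.h + ρ₂.h) ; A and B not joined in {h ≥ 1}] ≤ E[exp(ρ₁.h - ρ₂.h)]`.
-/

open Topology Finset
open scoped FinsetFamily

namespace Vale.Agent.P159.T1.H773

open Vale.Agent.P159.T1.H254

/-- nonnegative, even, log-concave kernels -/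
structure LC (w : ℤ → ℝ) : Prop where
  nonneg : ∀ n, 0 ≤ w n
  even : ∀ n, w (-n) = w n
  lc : ∀ p q d : ℤ, 0 ≤ d → d ≤ q - p → w p * w q ≤ w (p + d) * w (q - d)

/-- lattice condition for an edge -/
lemma LC.latt {w : ℤ → ℝ} (hw : LC w) (a b c d : ℤ) :
    w (b - a) * w (d - c) ≤ w (b ⊓ d - a ⊓ c) * w (b ⊔ d - a ⊔ c) := by
  rcases le_total a c with h1 | h1 <;> rcases le_total b d with h2 | h2
  · rw [inf_eq_left.2 h1, inf_eq_left.2 h2, sup_eq_right.2 h1, sup_eq_right.2 h2]
  · rw [inf_eq_left.2 h1, inf_eq_right.2 h2, sup_eq_right.2 h1, sup_eq_left.2 h2]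
    have := hw.lc (d - c) (b - a) (c - a) (by omega) (by omega)
    rw [show d - c + (c - a) = d - a by ring, show b - a - (c - a) = b - c by ring] at this
    linarith [mul_comm (w (d - c)) (w (b - a))]
  · rw [inf_eq_right.2 h1, inf_eq_left.2 h2, sup_eq_left.2 h1, sup_eq_right.2 h2]
    have := hw.lc (b - a) (d - c) (a - c) (by omega) (by omega)
    rw [show b - a + (a - c) = b - c by ring, show d - c - (a - c) = d - a by ring] at this
    exact this
  · rw [inf_eq_right.2 h1, inf_eq_right.2 h2, sup_eq_left.2 h1, sup_eq_left.2 h2, mul_comm]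

/-- one-step log-concavity is enough -/
lemma LC.of_step {w : ℤ → ℝ} (h0 : ∀ n, 0 ≤ w n) (h1 : ∀ n, w (-n) = w n)
    (h2 : ∀ p q : ℤ, p < q → w p * w q ≤ w (p + 1) * w (q - 1)) : LC w := by
  refine ⟨h0, h1, ?_⟩
  -- up to the middle
  have key : ∀ d : ℕ, ∀ p q : ℤ, 2 * (d : ℤ) ≤ q - p + 1 → w p * w q ≤ w (p + d) * w (q - d) := by
    intro d
    induction d with
    | zero => intro p q _; simp
    | succ d ih =>
      intro p q h
      push_cast at h
      have h3 := ih p q (by omega)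
      have h4 := h2 (p + d) (q - d) (by omega)
      push_cast
      rw [show p + ((d : ℤ) + 1) = p + d + 1 by ring, show q - ((d : ℤ) + 1) = q - d - 1 by ring]
      exact h3.trans h4
  intro p q d hd hdq
  rcases le_or_gt (2 * d) (q - p + 1) with h | h
  · obtain ⟨n, rfl⟩ := Int.eq_ofNat_of_zero_le hd
    exact key n p q h
  · obtain ⟨n, hn⟩ := Int.eq_ofNat_of_zero_le (show 0 ≤ q - p - d by omega)
    have h5 := key n p q (by omega)
    rw [show p + (n : ℤ) = q - d by omega, show q - (n : ℤ) = p + d by omega] at h5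
    linarith [mul_comm (w (q - d)) (w (p + d))]

/-- the unit step kernel is log-concave -/
lemma LC_ker {β : ℝ} (h0 : 0 ≤ β) (h1 : β ≤ 1) : LC (ker 1 β) := by
  refine LC.of_step ?_ ?_ ?_
  · intro n
    unfold ker
    split_ifs <;> linarith
  · intro n
    unfold ker
    simp
  · intro p q hpq
    have hk : ∀ n, 0 ≤ ker 1 β n := by
      intro n
      unfold ker
      split_ifs <;> linarith
    by_cases hp : |p| ≤ 1
    · by_cases hq : |q| ≤ 1
      · rw [abs_le] at hp hq
        have hb : β * β ≤ 1 := by nlinarith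
        obtain ⟨hp1, hp2⟩ := hp
        obtain ⟨hq1, hq2⟩ := hq
        interval_cases p <;> interval_cases q <;> first | omega | (simp [ker]; try linarith)
      · have : ker 1 β q = 0 := by
          unfold ker
          rw [if_neg, if_neg]
          · intro h; exact hq h.le
          · rintro rfl; simp at hq
        rw [this, mul_zero]
        exact mul_nonneg (hk _) (hk _)
    · have : ker 1 β p = 0 := by
        unfold ker
        rw [if_neg, if_neg]
        · intro h; exact hp h.le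
        · rintro rfl; simp at hp
      rw [this, zero_mul]
      exact mul_nonneg (hk _) (hk _)

/-- constant kernel -/
lemma LC_one : LC (fun _ => 1) := ⟨fun _ => zero_le_one, fun _ => rfl, fun _ _ _ _ _ => le_refl _⟩

/-! ### a comparison of sums over a set which is closed under `⊓`, `⊔` and a reflection -/

lemma flip_sum_le {α : Type} [DistribLattice α] [DecidableEq α] (s : Finset α) (φ : α → α)
    (hinf : ∀ a ∈ s, ∀ b ∈ s, a ⊓ b ∈ s) (hsup : ∀ a ∈ s, ∀ b ∈ s, a ⊔ b ∈ s)
    (hφ : ∀ a ∈ s, φ a ∈ s) (hφφ : ∀ a ∈ s, φ (φ a) = a) (F X : α → ℝ) (hF : ∀ a, 0 ≤ F a)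
    (hX : ∀ a ∈ s, X (φ a) = -X a) (hXm : ∀ a ∈ s, ∀ b ∈ s, X a ≤ X (a ⊔ b))
    (hl : ∀ a ∈ s, ∀ b ∈ s, F a * F (φ b) ≤ F (a ⊓ b) * F (φ (a ⊔ b))) :
    ∑ a ∈ s, F a * Real.exp (X a) ≤ ∑ a ∈ s, F a * Real.exp (-X a) := by
  classical
  have h4 := four_functions_theorem (α := α) (β := ℝ)
    (fun a => if a ∈ s then F a * Real.exp (X a) else 0) (fun a => if a ∈ s then F (φ a) else 0)
    (fun a => if a ∈ s then F a else 0)
    (fun a => if a ∈ s then F (φ a) * Real.exp (X a) else 0)
    (fun a => by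
      simp only [Pi.zero_apply]
      split_ifs
      · exact mul_nonneg (hF _) (Real.exp_pos _).le
      · exact le_refl _)
    (fun a => by
      simp only [Pi.zero_apply]
      split_ifs
      · exact hF _
      · exact le_refl _)
    (fun a => by
      simp only [Pi.zero_apply]
      split_ifs
      · exact hF _
      · exact le_refl _)
    (fun a => by
      simp only [Pi.zero_apply]
      split_ifs
      · exact mul_nonneg (hF _) (Real.exp_pos _).le
      · exact le_refl _)
    (by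
      intro a b
      by_cases ha : a ∈ s
      · by_cases hb : b ∈ s
        · simp only [ha, hb, hinf a ha b hb, hsup a ha b hb, if_true]
          have h1 := hl a ha b hb
          have h2 : Real.exp (X a) ≤ Real.exp (X (a ⊔ b)) := Real.exp_le_exp.2 (hXm a ha b hb)
          calc F a * Real.exp (X a) * F (φ b) = (F a * F (φ b)) * Real.exp (X a) := by ring
            _ ≤ (F (a ⊓ b) * F (φ (a ⊔ b))) * Real.exp (X (a ⊔ b)) :=
                mul_le_mul h1 h2 (Real.exp_pos _).le (mul_nonneg (hF _) (hF _))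
            _ = _ := by ring
        · simp only [hb, if_false, mul_zero]
          refine mul_nonneg ?_ ?_
          · split_ifs
            · exact hF _
            · exact le_refl _
          · split_ifs
            · exact mul_nonneg (hF _) (Real.exp_pos _).le
            · exact le_refl _
      · simp only [ha, if_false, zero_mul]
        refine mul_nonneg ?_ ?_
        · split_ifs
          · exact hF _
          · exact le_refl _
        · split_ifs
          · exact mul_nonneg (hF _) (Real.exp_pos _).le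
          · exact le_refl _)
    s s
  have hsi : s ⊼ s ⊆ s := by
    intro x hx
    rw [Finset.mem_infs] at hx
    obtain ⟨a, ha, b, hb, rfl⟩ := hx
    exact hinf a ha b hb
  have hss : s ⊻ s ⊆ s := by
    intro x hx
    rw [Finset.mem_sups] at hx
    obtain ⟨a, ha, b, hb, rfl⟩ := hx
    exact hsup a ha b hb
  have e1 : ∑ a ∈ s, (if a ∈ s then F a * Real.exp (X a) else 0) =
      ∑ a ∈ s, F a * Real.exp (X a) :=
    Finset.sum_congr rfl fun a ha => if_pos ha
  have e2 : ∑ a ∈ s, (if a ∈ s then F (φ a) else 0) = ∑ a ∈ s, F a := by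
    rw [Finset.sum_congr rfl fun a ha => if_pos ha]
    exact Finset.sum_nbij' φ φ hφ hφ hφφ hφφ (fun a _ => rfl)
  have e3 : ∑ a ∈ s ⊼ s, (if a ∈ s then F a else 0) ≤ ∑ a ∈ s, F a := by
    calc ∑ a ∈ s ⊼ s, (if a ∈ s then F a else 0) ≤ ∑ a ∈ s, (if a ∈ s then F a else 0) := by
          refine Finset.sum_le_sum_of_subset_of_nonneg hsi fun a _ _ => ?_
          split_ifs
          simp [hF]
      _ = ∑ a ∈ s, F a := Finset.sum_congr rfl fun a ha => if_pos ha
  have e4 : ∑ a ∈ s ⊻ s, (if a ∈ s then F (φ a) * Real.exp (X a) else 0) ≤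
      ∑ a ∈ s, F a * Real.exp (-X a) := by
    calc ∑ a ∈ s ⊻ s, (if a ∈ s then F (φ a) * Real.exp (X a) else 0)
        ≤ ∑ a ∈ s, (if a ∈ s then F (φ a) * Real.exp (X a) else 0) := by
          refine Finset.sum_le_sum_of_subset_of_nonneg hss fun a _ _ => ?_
          split_ifs
          exact mul_nonneg (hF _) (Real.exp_pos _).le
      _ = ∑ a ∈ s, F (φ a) * Real.exp (X a) := Finset.sum_congr rfl fun a ha => if_pos ha
      _ = ∑ a ∈ s, F a * Real.exp (-X a) := by
          refine Finset.sum_nbij' φ φ hφ hφ hφφ hφφ (fun a ha => ?_)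
          rw [hX a ha, neg_neg]
  rw [e1, e2] at h4
  have hZ : 0 ≤ ∑ a ∈ s, F a := Finset.sum_nonneg fun a _ => hF a
  have h5 : (∑ a ∈ s, F a * Real.exp (X a)) * ∑ a ∈ s, F a ≤
      (∑ a ∈ s, F a) * ∑ a ∈ s, F a * Real.exp (-X a) :=
    h4.trans (mul_le_mul e3 e4 (Finset.sum_nonneg fun a _ => by
      split_ifs
      · exact mul_nonneg (hF _) (Real.exp_pos _).le
      · exact le_refl _) hZ)
  rcases hZ.eq_or_lt with h0 | hpos
  · have hz : ∀ a ∈ s, F a = 0 :=
      (Finset.sum_eq_zero_iff_of_nonneg fun a _ => hF a).1 h0.symm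
    rw [Finset.sum_eq_zero fun a ha => by rw [hz a ha, zero_mul],
      Finset.sum_eq_zero fun a ha => by rw [hz a ha, zero_mul]]
  · rw [mul_comm] at h5
    exact le_of_mul_le_mul_left h5 hpos

/-! ### definitions -/

section defs

variable {V E : Type} [Fintype V] [DecidableEq V] [Fintype E] [DecidableEq E]

/-- the weight of the heights, the vertices of `S` and their edges deleted -/
noncomputable def wt (s t : E → V) (w : E → ℤ → ℝ) (S : Finset V) (h : V → ℤ) : ℝ :=
  ∏ e, if s e ∈ S ∨ t e ∈ S then 1 else w e (h (t e) - h (s e))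

/-- one step inside `{h ≥ 1}` -/
def stp (s t : E → V) (S : Finset V) (h : V → ℤ) (x y : V) : Prop :=
  adjS s t S x y ∧ 1 ≤ h x ∧ 1 ≤ h y

/-- `A` and `B` are joined inside `{h ≥ 1}` -/
def Jn (s t : E → V) (S : Finset V) (h : V → ℤ) (A B : Finset V) : Prop :=
  ∃ a ∈ A, ∃ b ∈ B, 1 ≤ h a ∧ Relation.ReflTransGen (stp s t S h) a b

/-- the linear functional `ρ.h` -/
noncomputable def lin (ρ : V → ℝ) (h : V → ℤ) : ℝ := ∑ v, ρ v * (h v : ℝ)

open Classical in
/-- the union of the clusters of `{h ≥ 1}` which meet `A` -/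
noncomputable def Qs (s t : E → V) (S A : Finset V) (h : V → ℤ) : Finset V :=
  Finset.univ.filter fun v => ∃ a ∈ A, 1 ≤ h a ∧ Relation.ReflTransGen (stp s t S h) a v

/-- the outer boundary of an explored set -/
def Dd (s t : E → V) (S A Q : Finset V) (v : V) : Prop :=
  v ∉ Q ∧ (v ∈ A ∨ ∃ u ∈ Q, adjS s t S u v)

/-- the reflection outside `Q` -/
def flp (Q : Finset V) (h : V → ℤ) (v : V) : ℤ := if v ∈ Q then h v else -h v

variable {s t : E → V} {w : E → ℤ → ℝ} {S A B P : Finset V}

omit [Fintype V] [DecidableEq E] in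
lemma wt_nonneg (hw : ∀ e, LC (w e)) (h : V → ℤ) : 0 ≤ wt s t w S h :=
  Finset.prod_nonneg fun e _ => by
    split_ifs
    · exact zero_le_one
    · exact (hw e).nonneg _

omit [Fintype V] [DecidableEq V] [Fintype E] [DecidableEq E] in
lemma adjS_symm {x y : V} (h : adjS s t S x y) : adjS s t S y x := by
  obtain ⟨h1, h2, e, h3⟩ := h
  exact ⟨h2, h1, e, h3.symm⟩

omit [DecidableEq V] [Fintype E] [DecidableEq E] in
lemma mem_Qs {h : V → ℤ} {v : V} : v ∈ Qs s t S A h ↔
    ∃ a ∈ A, 1 ≤ h a ∧ Relation.ReflTransGen (stp s t S h) a v := by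
  unfold Qs
  simp

omit [DecidableEq V] [Fintype E] [DecidableEq E] in
lemma one_le_of_mem_Qs {h : V → ℤ} {v : V} (hv : v ∈ Qs s t S A h) : 1 ≤ h v := by
  obtain ⟨a, _, h1, h2⟩ := mem_Qs.1 hv
  rcases Relation.ReflTransGen.cases_tail h2 with h3 | ⟨c, _, h3⟩
  · rw [h3]; exact h1
  · exact h3.2.2

omit [DecidableEq V] [Fintype E] [DecidableEq E] in
lemma Qs_step {h : V → ℤ} {u v : V} (hu : u ∈ Qs s t S A h) (huv : adjS s t S u v)
    (hv : 1 ≤ h v) : v ∈ Qs s t S A h := by
  obtain ⟨a, ha, h1, h2⟩ := mem_Qs.1 hu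
  exact mem_Qs.2 ⟨a, ha, h1, h2.tail ⟨huv, one_le_of_mem_Qs hu, hv⟩⟩

omit [DecidableEq V] [Fintype E] [DecidableEq E] in
/-- characterisation of the heights with a given explored set -/
theorem Qs_eq_iff {h0 h : V → ℤ} (hh : ∀ v ∈ Qs s t S A h0, h v = h0 v) :
    Qs s t S A h = Qs s t S A h0 ↔ ∀ v, Dd s t S A (Qs s t S A h0) v → h v ≤ 0 := by
  constructor
  · intro heq v hv
    by_contra hlt
    have h1 : 1 ≤ h v := by omega
    apply hv.1
    rw [← heq]
    rcases hv.2 with h2 | ⟨u, hu, h2⟩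
    · exact mem_Qs.2 ⟨v, h2, h1, Relation.ReflTransGen.refl⟩
    · rw [← heq] at hu
      exact Qs_step hu h2 h1
  · intro hD
    apply Finset.Subset.antisymm
    · intro v hv
      obtain ⟨a, ha, h1, h2⟩ := mem_Qs.1 hv
      induction h2 with
      | refl =>
        by_contra hn
        have := hD a ⟨hn, Or.inl ha⟩
        omega
      | @tail b c hb hbc ih =>
        have hb' : b ∈ Qs s t S A h := mem_Qs.2 ⟨a, ha, h1, hb⟩
        have h3 := ih hb'
        by_contra hn
        have := hD c ⟨hn, Or.inr ⟨b, h3, hbc.1⟩⟩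
        have := hbc.2.2
        omega
    · intro v hv
      obtain ⟨a, ha, h1, h2⟩ := mem_Qs.1 hv
      have haQ : a ∈ Qs s t S A h0 := mem_Qs.2 ⟨a, ha, h1, Relation.ReflTransGen.refl⟩
      have h1' : 1 ≤ h a := by rw [hh a haQ]; exact h1
      refine mem_Qs.2 ⟨a, ha, h1', ?_⟩
      clear hv
      induction h2 with
      | refl => exact Relation.ReflTransGen.refl
      | @tail b c hb hbc ih =>
        have hbQ : b ∈ Qs s t S A h0 := mem_Qs.2 ⟨a, ha, h1, hb⟩
        have hcQ : c ∈ Qs s t S A h0 := Qs_step hbQ hbc.1 hbc.2.2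
        refine ih.tail ⟨hbc.1, ?_, ?_⟩
        · rw [hh b hbQ]; exact hbc.2.1
        · rw [hh c hcQ]; exact hbc.2.2

omit [DecidableEq V] [Fintype E] [DecidableEq E] in
lemma not_Jn_iff {h : V → ℤ} : ¬ Jn s t S h A B ↔ ∀ b ∈ B, b ∉ Qs s t S A h := by
  unfold Jn
  constructor
  · intro hn b hb hq
    obtain ⟨a, ha, h1, h2⟩ := mem_Qs.1 hq
    exact hn ⟨a, ha, b, hb, h1, h2⟩
  · rintro hn ⟨a, ha, b, hb, h1, h2⟩
    exact hn b hb (mem_Qs.2 ⟨a, ha, h1, h2⟩)

omit [Fintype V] in
lemma flp_flp (Q : Finset V) (h : V → ℤ) : flp Q (flp Q h) = h := by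
  funext v
  unfold flp
  split_ifs <;> simp

/-- the weight with the boundary condition `h ≤ 0` on the outer boundary -/
noncomputable def FF (s t : E → V) (w : E → ℤ → ℝ) (S A Q : Finset V) (ρ : V → ℝ)
    (h : V → ℤ) : ℝ :=
  open Classical in
  if ∀ v, Dd s t S A Q v → h v ≤ 0 then wt s t w S h * Real.exp (lin ρ h) else 0

omit [DecidableEq E] in
lemma FF_nonneg (hw : ∀ e, LC (w e)) (Q : Finset V) (ρ : V → ℝ) (h : V → ℤ) :
    0 ≤ FF s t w S A Q ρ h := by
  unfold FF
  split_ifs
  · exact mul_nonneg (wt_nonneg hw h) (Real.exp_pos _).le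
  · exact le_refl _

omit [DecidableEq E] in
/-- the lattice condition -/
theorem FF_latt (hw : ∀ e, LC (w e)) {Q : Finset V} {ρ : V → ℝ} (hρ : ∀ v, v ∉ A → ρ v = 0)
    {h g : V → ℤ} (hhg : ∀ v ∈ Q, h v = g v) :
    FF s t w S A Q ρ h * FF s t w S A Q ρ (flp Q g) ≤
      FF s t w S A Q ρ (h ⊓ g) * FF s t w S A Q ρ (flp Q (h ⊔ g)) := by
  classical
  by_cases h1 : ∀ v, Dd s t S A Q v → h v ≤ 0
  · by_cases h2 : ∀ v, Dd s t S A Q v → flp Q g v ≤ 0
    · have h2' : ∀ v, Dd s t S A Q v → 0 ≤ g v := by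
        intro v hv
        have := h2 v hv
        unfold flp at this
        rw [if_neg hv.1] at this
        omega
      have h3 : ∀ v, Dd s t S A Q v → (h ⊓ g) v ≤ 0 := fun v hv => inf_le_left.trans (h1 v hv)
      have h4 : ∀ v, Dd s t S A Q v → flp Q (h ⊔ g) v ≤ 0 := by
        intro v hv
        unfold flp
        rw [if_neg hv.1]
        have : g v ≤ (h ⊔ g) v := le_sup_right
        have := h2' v hv
        omega
      have hle : ∀ v, Dd s t S A Q v → h v ≤ g v := fun v hv => (h1 v hv).trans (h2' v hv)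
      unfold FF
      rw [if_pos h1, if_pos h2, if_pos h3, if_pos h4]
      have e1 : lin ρ h + lin ρ (flp Q g) = lin ρ (h ⊓ g) + lin ρ (flp Q (h ⊔ g)) := by
        unfold lin
        rw [← Finset.sum_add_distrib, ← Finset.sum_add_distrib]
        refine Finset.sum_congr rfl fun v _ => ?_
        by_cases hA : v ∈ A
        · by_cases hQ : v ∈ Q
          · simp only [flp, hQ, if_true, Pi.inf_apply, Pi.sup_apply, hhg v hQ, inf_idem, sup_idem]
          · have h5 := hle v ⟨hQ, Or.inl hA⟩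
            simp only [flp, hQ, if_false, Pi.inf_apply, Pi.sup_apply, inf_eq_left.2 h5,
              sup_eq_right.2 h5]
        · rw [hρ v hA]; simp
      have e2 : wt s t w S h * wt s t w S (flp Q g) ≤
          wt s t w S (h ⊓ g) * wt s t w S (flp Q (h ⊔ g)) := by
        unfold wt
        rw [← Finset.prod_mul_distrib, ← Finset.prod_mul_distrib]
        refine Finset.prod_le_prod (fun e _ => ?_) (fun e _ => ?_)
        · split_ifs
          · norm_num
          · exact mul_nonneg ((hw e).nonneg _) ((hw e).nonneg _)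
        · by_cases hS : s e ∈ S ∨ t e ∈ S
          · rw [if_pos hS, if_pos hS, if_pos hS, if_pos hS]
          · rw [if_neg hS, if_neg hS, if_neg hS, if_neg hS]
            push Not at hS
            have hadj : adjS s t S (s e) (t e) := ⟨hS.1, hS.2, e, Or.inl ⟨rfl, rfl⟩⟩
            by_cases hx : s e ∈ Q
            · by_cases hy : t e ∈ Q
              · simp only [flp, hx, hy, if_true, Pi.inf_apply, Pi.sup_apply, hhg _ hx, hhg _ hy,
                  inf_idem, sup_idem]
                exact le_refl _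
              · have h5 := hle (t e) ⟨hy, Or.inr ⟨s e, hx, hadj⟩⟩
                simp only [flp, hx, hy, if_true, if_false, Pi.inf_apply, Pi.sup_apply, hhg _ hx,
                  inf_idem, sup_idem, inf_eq_left.2 h5, sup_eq_right.2 h5]
                exact le_refl _
            · by_cases hy : t e ∈ Q
              · have h5 := hle (s e) ⟨hx, Or.inr ⟨t e, hy, adjS_symm hadj⟩⟩
                simp only [flp, hx, hy, if_true, if_false, Pi.inf_apply, Pi.sup_apply, hhg _ hy,
                  inf_idem, sup_idem, inf_eq_left.2 h5, sup_eq_right.2 h5]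
                exact le_refl _
              · simp only [flp, hx, hy, if_false, Pi.inf_apply, Pi.sup_apply]
                have e3 : ∀ a b : ℤ, w e (-b - -a) = w e (b - a) := by
                  intro a b
                  rw [← (hw e).even (b - a)]
                  congr 1
                  ring
                rw [e3, e3]
                exact (hw e).latt _ _ _ _
      calc wt s t w S h * Real.exp (lin ρ h) * (wt s t w S (flp Q g) * Real.exp (lin ρ (flp Q g)))
          = (wt s t w S h * wt s t w S (flp Q g)) * Real.exp (lin ρ h + lin ρ (flp Q g)) := by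
            rw [Real.exp_add]; ring
        _ ≤ (wt s t w S (h ⊓ g) * wt s t w S (flp Q (h ⊔ g))) *
              Real.exp (lin ρ h + lin ρ (flp Q g)) :=
            mul_le_mul_of_nonneg_right e2 (Real.exp_pos _).le
        _ = _ := by rw [e1, Real.exp_add]; ring
    · have : FF s t w S A Q ρ (flp Q g) = 0 := by
        unfold FF
        rw [if_neg h2]
      rw [this, mul_zero]
      exact mul_nonneg (FF_nonneg hw _ _ _) (FF_nonneg hw _ _ _)
  · have : FF s t w S A Q ρ h = 0 := by
      unfold FF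
      rw [if_neg h1]
    rw [this, zero_mul]
    exact mul_nonneg (FF_nonneg hw _ _ _) (FF_nonneg hw _ _ _)

/-- the heights with values in `[-M, M]` which vanish on `P` -/
noncomputable def box (P : Finset V) (M : ℕ) : Finset (V → ℤ) :=
  (Fintype.piFinset fun _ => Finset.Icc (-(M : ℤ)) M).filter fun h => ∀ v ∈ P, h v = 0

lemma mem_box {M : ℕ} {h : V → ℤ} :
    h ∈ box P M ↔ (∀ v, |h v| ≤ M) ∧ ∀ v ∈ P, h v = 0 := by
  unfold box
  simp only [Finset.mem_filter, Fintype.mem_piFinset, Finset.mem_Icc, abs_le]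

open Classical in
/-- **Connectivity lemma**, heights with values in `[-M, M]`. -/
theorem conn_box (hw : ∀ e, LC (w e)) {ρ₁ ρ₂ : V → ℝ} (h1 : ∀ v, v ∉ A → ρ₁ v = 0)
    (h2 : ∀ v, v ∉ B → ρ₂ v = 0) (h2' : ∀ v, 0 ≤ ρ₂ v) (M : ℕ) :
    ∑ h ∈ box P M, (if Jn s t S h A B then 0 else
        wt s t w S h * Real.exp (lin ρ₁ h + lin ρ₂ h)) ≤
      ∑ h ∈ box P M, wt s t w S h * Real.exp (lin ρ₁ h - lin ρ₂ h) := by
  set κ : (V → ℤ) → Finset V × (V → ℤ) := fun h =>
    (Qs s t S A h, fun v => if v ∈ Qs s t S A h then h v else 0) with hκ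
  have hmap : ∀ h ∈ box P M, κ h ∈ (box P M).image κ := fun h hh => Finset.mem_image_of_mem _ hh
  rw [← Finset.sum_fiberwise_of_maps_to hmap, ← Finset.sum_fiberwise_of_maps_to hmap]
  refine Finset.sum_le_sum fun k hk => ?_
  obtain ⟨h0, hh0, rfl⟩ := Finset.mem_image.1 hk
  set Q := Qs s t S A h0 with hQ
  -- the fibre
  set G : Finset (V → ℤ) := (box P M).filter fun h => ∀ v ∈ Q, h v = h0 v with hG
  have hfib : ∀ h, h ∈ (box P M).filter (fun x => κ x = κ h0) ↔
      h ∈ G ∧ ∀ v, Dd s t S A Q v → h v ≤ 0 := by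
    intro h
    rw [Finset.mem_filter, hG, Finset.mem_filter]
    constructor
    · rintro ⟨hb, hk⟩
      simp only [hκ, Prod.mk.injEq] at hk
      obtain ⟨hk1, hk2⟩ := hk
      have hv : ∀ v ∈ Q, h v = h0 v := by
        intro v hv
        have := congrFun hk2 v
        simp only [hk1] at this
        rw [if_pos hv, if_pos hv] at this
        exact this
      exact ⟨⟨hb, hv⟩, (Qs_eq_iff hv).1 hk1⟩
    · rintro ⟨⟨hb, hv⟩, hD⟩
      refine ⟨hb, ?_⟩
      have hk1 : Qs s t S A h = Q := (Qs_eq_iff hv).2 hD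
      simp only [hκ, Prod.mk.injEq]
      refine ⟨hk1, ?_⟩
      funext v
      rw [hk1]
      by_cases hvQ : v ∈ Q
      · rw [if_pos hvQ, if_pos hvQ]; exact hv v hvQ
      · rw [if_neg hvQ, if_neg hvQ]
  by_cases hB : ∀ b ∈ B, b ∉ Q
  · -- the sums over the fibre as sums over `G`
    have hfil : (box P M).filter (fun x => κ x = κ h0) =
        G.filter fun h => ∀ v, Dd s t S A Q v → h v ≤ 0 := by
      ext h
      constructor
      · intro hx
        exact Finset.mem_filter.2 ((hfib h).1 hx)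
      · intro hx
        exact (hfib h).2 (Finset.mem_filter.1 hx)
    have e1 : ∑ h ∈ (box P M).filter (fun x => κ x = κ h0), (if Jn s t S h A B then 0 else
        wt s t w S h * Real.exp (lin ρ₁ h + lin ρ₂ h)) =
        ∑ h ∈ G, FF s t w S A Q ρ₁ h * Real.exp (lin ρ₂ h) := by
      rw [hfil, Finset.sum_filter]
      refine Finset.sum_congr rfl fun h hh => ?_
      unfold FF
      by_cases hD : ∀ v, Dd s t S A Q v → h v ≤ 0
      · rw [if_pos hD, if_pos hD]
        have hv : ∀ v ∈ Q, h v = h0 v := (Finset.mem_filter.1 hh).2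
        have hk1 : Qs s t S A h = Q := (Qs_eq_iff hv).2 hD
        have hnJ : ¬ Jn s t S h A B := not_Jn_iff.2 (by rw [hk1]; exact hB)
        rw [if_neg hnJ, Real.exp_add]
        ring
      · rw [if_neg hD, if_neg hD, zero_mul]
    have e2 : ∑ h ∈ (box P M).filter (fun x => κ x = κ h0),
        wt s t w S h * Real.exp (lin ρ₁ h - lin ρ₂ h) =
        ∑ h ∈ G, FF s t w S A Q ρ₁ h * Real.exp (-lin ρ₂ h) := by
      rw [hfil, Finset.sum_filter]
      refine Finset.sum_congr rfl fun h hh => ?_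
      unfold FF
      by_cases hD : ∀ v, Dd s t S A Q v → h v ≤ 0
      · rw [if_pos hD, if_pos hD, sub_eq_add_neg, Real.exp_add]
        ring
      · rw [if_neg hD, if_neg hD, zero_mul]
    rw [e1, e2]
    have hGm : ∀ h, h ∈ G ↔ ((∀ v, |h v| ≤ M) ∧ ∀ v ∈ P, h v = 0) ∧ ∀ v ∈ Q, h v = h0 v := by
      intro h
      rw [hG, Finset.mem_filter, mem_box]
    refine flip_sum_le G (flp Q) ?_ ?_ ?_ ?_ (FF s t w S A Q ρ₁) (lin ρ₂)
      (FF_nonneg hw Q ρ₁) ?_ ?_ ?_
    · intro a ha b hb
      rw [hGm] at ha hb ⊢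
      obtain ⟨⟨a1, a2⟩, a3⟩ := ha
      obtain ⟨⟨b1, b2⟩, b3⟩ := hb
      refine ⟨⟨fun v => ?_, fun v hv => ?_⟩, fun v hv => ?_⟩
      · rw [Pi.inf_apply]
        rcases le_total (a v) (b v) with h | h
        · rw [inf_eq_left.2 h]; exact a1 v
        · rw [inf_eq_right.2 h]; exact b1 v
      · rw [Pi.inf_apply, a2 v hv, b2 v hv, inf_idem]
      · rw [Pi.inf_apply, a3 v hv, b3 v hv, inf_idem]
    · intro a ha b hb
      rw [hGm] at ha hb ⊢
      obtain ⟨⟨a1, a2⟩, a3⟩ := ha
      obtain ⟨⟨b1, b2⟩, b3⟩ := hb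
      refine ⟨⟨fun v => ?_, fun v hv => ?_⟩, fun v hv => ?_⟩
      · rw [Pi.sup_apply]
        rcases le_total (a v) (b v) with h | h
        · rw [sup_eq_right.2 h]; exact b1 v
        · rw [sup_eq_left.2 h]; exact a1 v
      · rw [Pi.sup_apply, a2 v hv, b2 v hv, sup_idem]
      · rw [Pi.sup_apply, a3 v hv, b3 v hv, sup_idem]
    · intro a ha
      rw [hGm] at ha ⊢
      obtain ⟨⟨a1, a2⟩, a3⟩ := ha
      refine ⟨⟨fun v => ?_, fun v hv => ?_⟩, fun v hv => ?_⟩
      · unfold flp
        split_ifs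
        · exact a1 v
        · rw [abs_neg]; exact a1 v
      · unfold flp
        rw [a2 v hv]
        simp
      · unfold flp
        rw [if_pos hv]
        exact a3 v hv
    · intro a _
      exact flp_flp Q a
    · intro a _
      unfold lin
      rw [← Finset.sum_neg_distrib]
      refine Finset.sum_congr rfl fun v _ => ?_
      by_cases hv : v ∈ B
      · unfold flp
        rw [if_neg (hB v hv)]
        push_cast
        ring
      · rw [h2 v hv]; simp
    · intro a _ b _
      unfold lin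
      refine Finset.sum_le_sum fun v _ => ?_
      refine mul_le_mul_of_nonneg_left ?_ (h2' v)
      exact_mod_cast (le_sup_left : a v ≤ a v ⊔ b v)
    · intro a ha b hb
      refine FF_latt hw h1 fun v hv => ?_
      rw [((hGm a).1 ha).2 v hv, ((hGm b).1 hb).2 v hv]
  · -- joined: the left side vanishes
    push Not at hB
    obtain ⟨b, hb, hbQ⟩ := hB
    have e1 : ∑ h ∈ (box P M).filter (fun x => κ x = κ h0), (if Jn s t S h A B then 0 else
        wt s t w S h * Real.exp (lin ρ₁ h + lin ρ₂ h)) = 0 := by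
      refine Finset.sum_eq_zero fun h hh => ?_
      obtain ⟨hG1, hD⟩ := (hfib h).1 hh
      have hv : ∀ v ∈ Q, h v = h0 v := (Finset.mem_filter.1 hG1).2
      have hk1 : Qs s t S A h = Q := (Qs_eq_iff hv).2 hD
      rw [if_pos]
      by_contra hn
      exact not_Jn_iff.1 hn b hb (by rw [hk1]; exact hbQ)
    rw [e1]
    exact Finset.sum_nonneg fun h _ => mul_nonneg (wt_nonneg hw h) (Real.exp_pos _).le

omit [Fintype E] [DecidableEq E] in
/-- sums over boxes converge to the sum over all heights -/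
lemma tendsto_box {p : (V → ℤ) → Prop} (hp : ∀ h, p h ↔ ∀ v ∈ P, h v = 0) {f : (V → ℤ) → ℝ}
    (hf : Summable fun h : {h // p h} => f h.1) :
    Filter.Tendsto (fun M : ℕ => ∑ h ∈ box P M, f h) Filter.atTop
      (𝓝 (∑' h : {h // p h}, f h.1)) := by
  classical
  have h1 : Filter.Tendsto (fun M : ℕ => (box P M).subtype p) Filter.atTop Filter.atTop := by
    refine Filter.tendsto_atTop_finset_of_monotone ?_ ?_
    · intro M N hMN h hh
      rw [Finset.mem_subtype, mem_box] at hh ⊢
      exact ⟨fun v => (hh.1 v).trans (by exact_mod_cast hMN), hh.2⟩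
    · intro h
      obtain ⟨M, hM⟩ : ∃ M : ℕ, ∀ v, |h.1 v| ≤ M := by
        refine ⟨∑ v, (h.1 v).natAbs, fun v => ?_⟩
        rw [Int.abs_eq_natAbs]
        exact_mod_cast Finset.single_le_sum (f := fun v => (h.1 v).natAbs)
          (fun _ _ => Nat.zero_le _) (Finset.mem_univ v)
      exact ⟨M, by rw [Finset.mem_subtype, mem_box]; exact ⟨hM, (hp h.1).1 h.2⟩⟩
  have h2 := hf.hasSum.comp h1
  refine h2.congr fun M => ?_
  simp only [Function.comp_apply]
  exact Finset.sum_subtype_of_mem f fun h hh => (hp h).2 (mem_box.1 hh).2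

open Classical in
/-- **Connectivity lemma**, all heights which vanish on `P`. -/
theorem conn {p : (V → ℤ) → Prop} (hp : ∀ h, p h ↔ ∀ v ∈ P, h v = 0) (hw : ∀ e, LC (w e))
    {ρ₁ ρ₂ : V → ℝ} (h1 : ∀ v, v ∉ A → ρ₁ v = 0)
    (h2 : ∀ v, v ∉ B → ρ₂ v = 0) (h2' : ∀ v, 0 ≤ ρ₂ v)
    (hs : Summable fun h : {h // p h} => wt s t w S h.1 * Real.exp (lin ρ₁ h.1 + lin ρ₂ h.1))
    (hs' : Summable fun h : {h // p h} => wt s t w S h.1 * Real.exp (lin ρ₁ h.1 - lin ρ₂ h.1)) :
    ∑' h : {h // p h}, (if Jn s t S h.1 A B then 0 else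
        wt s t w S h.1 * Real.exp (lin ρ₁ h.1 + lin ρ₂ h.1)) ≤
      ∑' h : {h // p h}, wt s t w S h.1 * Real.exp (lin ρ₁ h.1 - lin ρ₂ h.1) := by
  have hs1 : Summable fun h : {h // p h} => (if Jn s t S h.1 A B then 0 else
      wt s t w S h.1 * Real.exp (lin ρ₁ h.1 + lin ρ₂ h.1)) := by
    refine Summable.of_nonneg_of_le (fun h => ?_) (fun h => ?_) hs
    · split_ifs
      · exact le_refl _
      · exact mul_nonneg (wt_nonneg hw h.1) (Real.exp_pos _).le
    · split_ifs
      · exact mul_nonneg (wt_nonneg hw h.1) (Real.exp_pos _).le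
      · exact le_refl _
  exact le_of_tendsto_of_tendsto'
    (tendsto_box hp (f := fun h => if Jn s t S h A B then 0 else
      wt s t w S h * Real.exp (lin ρ₁ h + lin ρ₂ h)) hs1)
    (tendsto_box hp (f := fun h => wt s t w S h * Real.exp (lin ρ₁ h - lin ρ₂ h)) hs')
    (fun M => conn_box hw h1 h2 h2' M)

end defs

end Vale.Agent.P159.T1.H773
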