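import Vale.Agent.P159.T1.H773.Conn

/-!
Reflection at level one (P159, plan 108, row 4.3): with unit steps,

  `Z(0|0 ; om and op not joined in {h ≤ 0}) = Z(0|2)`.
-/

open Topology Finset

namespace Vale.Agent.P159.T1.H773

open Vale.Agent.P159.T1.H254

section defs

variable {V E : Type} [Fintype V] [DecidableEq V] [Fintype E] [DecidableEq E]

/-- one step inside `{h ≤ 0}` -/
def stl (s t : E → V) (S : Finset V) (h : V → ℤ) (x y : V) : Prop :=
  adjS s t S x y ∧ h x ≤ 0 ∧ h y ≤ 0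

/-- `x` and `y` are joined in `{h ≤ 0}` -/
def JL (s t : E → V) (S : Finset V) (h : V → ℤ) (x y : V) : Prop :=
  Relation.ReflTransGen (stl s t S h) x y

open Classical in
/-- the reflection `h ↦ 2 - h` outside the `{h ≤ 0}`-cluster of `o` -/
noncomputable def rfl2 (s t : E → V) (S : Finset V) (o : V) (h : V → ℤ) (v : V) : ℤ :=
  if JL s t S h o v then h v else 2 - h v

variable {s t : E → V} {w : E → ℤ → ℝ} {S : Finset V} {o : V}

omit [Fintype V] [DecidableEq V] [Fintype E] [DecidableEq E] in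
lemma rfl2_pos {h : V → ℤ} {v : V} (hv : JL s t S h o v) : rfl2 s t S o h v = h v := if_pos hv

omit [Fintype V] [DecidableEq V] [Fintype E] [DecidableEq E] in
lemma rfl2_neg {h : V → ℤ} {v : V} (hv : ¬ JL s t S h o v) : rfl2 s t S o h v = 2 - h v :=
  if_neg hv

omit [Fintype V] [DecidableEq V] [Fintype E] [DecidableEq E] in
lemma JL_le {h : V → ℤ} (ho : h o ≤ 0) {v : V} (hv : JL s t S h o v) : h v ≤ 0 := by
  rcases Relation.ReflTransGen.cases_tail hv with h3 | ⟨c, _, h3⟩
  · rw [h3]; exact ho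
  · exact h3.2.2

omit [Fintype V] [DecidableEq V] [Fintype E] [DecidableEq E] in
lemma JL_step {h : V → ℤ} (ho : h o ≤ 0) {u v : V} (hu : JL s t S h o u)
    (huv : adjS s t S u v) (hv : h v ≤ 0) : JL s t S h o v :=
  Relation.ReflTransGen.tail hu ⟨huv, JL_le ho hu, hv⟩

/-- unit steps along the edges outside `S` -/
def Unit1 (s t : E → V) (S : Finset V) (h : V → ℤ) : Prop :=
  ∀ x y, adjS s t S x y → |h y - h x| ≤ 1

omit [Fintype V] [DecidableEq V] [Fintype E] [DecidableEq E] in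
/-- the outer boundary of the cluster has height one -/
lemma JL_bd {h : V → ℤ} (hu : Unit1 s t S h) (ho : h o ≤ 0) {u v : V}
    (h1 : JL s t S h o u) (h2 : ¬ JL s t S h o v) (huv : adjS s t S u v) : h v = 1 := by
  have h3 : ¬ h v ≤ 0 := fun h3 => h2 (JL_step ho h1 huv h3)
  have h4 := JL_le ho h1
  have h5 := abs_le.1 (hu u v huv)
  omega

omit [Fintype V] [DecidableEq V] [Fintype E] [DecidableEq E] in
lemma JL_rfl2 {h : V → ℤ} (hu : Unit1 s t S h) (ho : h o ≤ 0) (v : V) :
    JL s t S (rfl2 s t S o h) o v ↔ JL s t S h o v := by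
  have hin : ∀ v, JL s t S h o v → rfl2 s t S o h v = h v := fun v hv => if_pos hv
  constructor
  · intro hv
    unfold JL at hv
    induction hv with
    | refl => exact Relation.ReflTransGen.refl
    | @tail b c _ hbc ih =>
      by_contra hc
      have h1 := JL_bd hu ho ih hc hbc.1
      have h2 := hbc.2.2
      unfold rfl2 at h2
      rw [if_neg hc, h1] at h2
      norm_num at h2
  · intro hv
    unfold JL at hv
    induction hv with
    | refl => exact Relation.ReflTransGen.refl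
    | @tail b c hb hbc ih =>
      refine Relation.ReflTransGen.tail ih ⟨hbc.1, ?_, ?_⟩
      · rw [hin b hb]; exact hbc.2.1
      · rw [hin c (Relation.ReflTransGen.tail hb hbc)]; exact hbc.2.2

omit [Fintype V] [DecidableEq V] [Fintype E] [DecidableEq E] in
lemma rfl2_rfl2 {h : V → ℤ} (hu : Unit1 s t S h) (ho : h o ≤ 0) :
    rfl2 s t S o (rfl2 s t S o h) = h := by
  funext v
  by_cases hv : JL s t S h o v
  · have h1 := (JL_rfl2 hu ho v).2 hv
    rw [rfl2_pos h1, rfl2_pos hv]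
  · have h1 : ¬ JL s t S (rfl2 s t S o h) o v := fun h => hv ((JL_rfl2 hu ho v).1 h)
    rw [rfl2_neg h1, rfl2_neg hv]
    ring

omit [Fintype V] [DecidableEq V] [Fintype E] [DecidableEq E] in
/-- the gradients are preserved up to the sign -/
lemma rfl2_grad {h : V → ℤ} (hu : Unit1 s t S h) (ho : h o ≤ 0) {x y : V}
    (hxy : adjS s t S x y) :
    rfl2 s t S o h y - rfl2 s t S o h x = h y - h x ∨
      rfl2 s t S o h y - rfl2 s t S o h x = -(h y - h x) := by
  unfold rfl2
  by_cases hx : JL s t S h o x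
  · by_cases hy : JL s t S h o y
    · rw [if_pos hx, if_pos hy]; exact Or.inl rfl
    · have := JL_bd hu ho hx hy hxy
      rw [if_pos hx, if_neg hy]
      left
      omega
  · by_cases hy : JL s t S h o y
    · have := JL_bd hu ho hy hx (adjS_symm hxy)
      rw [if_neg hx, if_pos hy]
      left
      omega
    · rw [if_neg hx, if_neg hy]
      right
      ring

omit [Fintype V] [DecidableEq V] [Fintype E] [DecidableEq E] in
lemma unit1_rfl2 {h : V → ℤ} (hu : Unit1 s t S h) (ho : h o ≤ 0) :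
    Unit1 s t S (rfl2 s t S o h) := by
  intro x y hxy
  rcases rfl2_grad hu ho hxy with h1 | h1
  · rw [h1]; exact hu x y hxy
  · rw [h1, abs_neg]; exact hu x y hxy

omit [Fintype V] [DecidableEq E] in
lemma wt_rfl2 (hev : ∀ e n, w e (-n) = w e n) {h : V → ℤ} (hu : Unit1 s t S h) (ho : h o ≤ 0) :
    wt s t w S (rfl2 s t S o h) = wt s t w S h := by
  unfold wt
  refine Finset.prod_congr rfl fun e _ => ?_
  by_cases hS : s e ∈ S ∨ t e ∈ S
  · rw [if_pos hS, if_pos hS]
  · rw [if_neg hS, if_neg hS]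
    push Not at hS
    rcases rfl2_grad hu ho (show adjS s t S (s e) (t e) from
      ⟨hS.1, hS.2, e, Or.inl ⟨rfl, rfl⟩⟩) with h1 | h1
    · rw [h1]
    · rw [h1, hev]

omit [Fintype V] [DecidableEq E] in
/-- heights with nonzero weight have unit steps -/
lemma unit1_of_wt (hst : ∀ e n, 1 < |n| → w e n = 0) {h : V → ℤ} (hh : wt s t w S h ≠ 0) :
    Unit1 s t S h := by
  rintro x y ⟨hx, hy, e, he⟩
  by_contra hn
  push Not at hn
  apply hh
  unfold wt
  apply Finset.prod_eq_zero (Finset.mem_univ e)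
  rcases he with ⟨rfl, rfl⟩ | ⟨rfl, rfl⟩
  · rw [if_neg (not_or.2 ⟨hx, hy⟩)]
    exact hst e _ hn
  · rw [if_neg (not_or.2 ⟨hy, hx⟩)]
    refine hst e _ ?_
    rw [abs_sub_comm]
    exact hn

open Classical in
omit [Fintype V] [DecidableEq E] in
/-- **Reflection at level one.** For unit steps and even kernels, for every function `X` of the
heights which does not see the reflection. -/
theorem refl_two {op : V} (hev : ∀ e n, w e (-n) = w e n) (hst : ∀ e n, 1 < |n| → w e n = 0)
    (p : (V → ℤ) → Prop) (j : ℤ)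
    (hp : ∀ h : V → ℤ, Unit1 s t S h → h o = 0 → ¬ JL s t S h o op →
      (p h ↔ p (rfl2 s t S o h))) :
    ∑' h : V → ℤ, (if h o = 0 ∧ h op = j ∧ ¬ JL s t S h o op ∧ p h then wt s t w S h else 0) =
      ∑' h : V → ℤ, (if h o = 0 ∧ h op = 2 - j ∧ ¬ JL s t S h o op ∧ p h then wt s t w S h
        else 0) := by
  have rprop : ∀ (h : V → ℤ), Unit1 s t S h → h o = 0 → ¬ JL s t S h o op →
      rfl2 s t S o h o = 0 ∧ rfl2 s t S o h op = 2 - h op ∧
        ¬ JL s t S (rfl2 s t S o h) o op := by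
    intro h hu ho hn
    refine ⟨?_, ?_, fun h1 => hn ((JL_rfl2 hu ho.le op).1 h1)⟩
    · rw [rfl2_pos Relation.ReflTransGen.refl]
      exact ho
    · exact rfl2_neg hn
  refine (tsum_eq_tsum_of_ne_zero_bij (fun x => rfl2 s t S o x.1) ?_ ?_ ?_)
  · rintro ⟨a, ha⟩ ⟨b, hb⟩ hab
    simp only [Function.mem_support, ne_eq, ite_eq_right_iff, Classical.not_imp] at ha hb
    have hab' : rfl2 s t S o a = rfl2 s t S o b := hab
    have ua := unit1_of_wt hst ha.2
    have ub := unit1_of_wt hst hb.2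
    apply Subtype.ext
    show a = b
    rw [← rfl2_rfl2 ua ha.1.1.le, hab', rfl2_rfl2 ub hb.1.1.le]
  · intro a ha
    simp only [Function.mem_support, ne_eq, ite_eq_right_iff, Classical.not_imp] at ha
    obtain ⟨⟨a1, a2, a3, a4⟩, a5⟩ := ha
    have ua := unit1_of_wt hst a5
    obtain ⟨r1, r2, r3⟩ := rprop a ua a1 a3
    refine ⟨⟨rfl2 s t S o a, ?_⟩, rfl2_rfl2 ua a1.le⟩
    simp only [Function.mem_support, ne_eq, ite_eq_right_iff, Classical.not_imp]
    refine ⟨⟨r1, by rw [r2, a2], r3, (hp a ua a1 a3).1 a4⟩, ?_⟩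
    rw [wt_rfl2 hev ua a1.le]
    exact a5
  · rintro ⟨a, ha⟩
    simp only [Function.mem_support, ne_eq, ite_eq_right_iff, Classical.not_imp] at ha
    obtain ⟨⟨a1, a2, a3, a4⟩, a5⟩ := ha
    have ua := unit1_of_wt hst a5
    obtain ⟨r1, r2, r3⟩ := rprop a ua a1 a3
    simp only
    rw [if_pos ⟨r1, by rw [r2, a2]; ring, r3, (hp a ua a1 a3).1 a4⟩, if_pos ⟨a1, a2, a3, a4⟩,
      wt_rfl2 hev ua a1.le]

open Classical in
omit [Fintype V] [DecidableEq E] in
/-- **REFL2**: `Z(0|0 ; o and op not joined in {h ≤ 0}) = Z(0|2)`. -/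
theorem refl_zero {op : V} (hev : ∀ e n, w e (-n) = w e n)
    (hst : ∀ e n, 1 < |n| → w e n = 0) (p : (V → ℤ) → Prop)
    (hp : ∀ h : V → ℤ, Unit1 s t S h → h o = 0 → ¬ JL s t S h o op →
      (p h ↔ p (rfl2 s t S o h))) :
    ∑' h : V → ℤ, (if h o = 0 ∧ h op = 0 ∧ ¬ JL s t S h o op ∧ p h then wt s t w S h else 0) =
      ∑' h : V → ℤ, (if h o = 0 ∧ h op = 2 ∧ p h then wt s t w S h else 0) := by
  rw [refl_two hev hst p 0 hp]
  refine tsum_congr fun h => ?_
  congr 1
  apply propext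
  constructor
  · rintro ⟨h1, h2, h3, h4⟩
    exact ⟨h1, by rw [h2]; ring, h4⟩
  · rintro ⟨h1, h2, h4⟩
    refine ⟨h1, by rw [h2]; ring, fun h3 => ?_, h4⟩
    have := JL_le (by rw [h1]) h3
    omega

end defs

end Vale.Agent.P159.T1.H773
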