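import Vale.Agent.P159.T1.H773.Conn

/-!
The separation lemma in full (P159, plan 108, Lemma 1): if `A` and `B` are not joined in
`{h ≥ 1}`, then the tilt on `B` may be flipped and any negative charge on `B` may be added:

  `E[1_W exp(ρ₁.h + ρ₂.h)] ≤ E[1_W exp(ρ₁.h - ρ₂.h - γ.h)]`.
-/

open Topology Finset
open scoped FinsetFamily

namespace Vale.Agent.P159.T1.H773

open Vale.Agent.P159.T1.H254

/-- the FKG inequality on a finite set which is closed under `⊓` and `⊔` (signed functions) -/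
lemma fkg_finset {α : Type} [DistribLattice α] [DecidableEq α] (s : Finset α)
    (hinf : ∀ a ∈ s, ∀ b ∈ s, a ⊓ b ∈ s) (hsup : ∀ a ∈ s, ∀ b ∈ s, a ⊔ b ∈ s)
    (μ f g : α → ℝ) (hμ : ∀ a ∈ s, 0 ≤ μ a)
    (hl : ∀ a ∈ s, ∀ b ∈ s, μ a * μ b ≤ μ (a ⊓ b) * μ (a ⊔ b))
    (hf : ∀ a ∈ s, ∀ b ∈ s, a ≤ b → f a ≤ f b) (hg : ∀ a ∈ s, ∀ b ∈ s, a ≤ b → g a ≤ g b) :
    (∑ a ∈ s, μ a * f a) * (∑ a ∈ s, μ a * g a) ≤
      (∑ a ∈ s, μ a) * ∑ a ∈ s, μ a * (f a * g a) := by
  classical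
  set c : ℝ := ∑ a ∈ s, (|f a| + |g a|) with hc
  have hfc : ∀ a ∈ s, 0 ≤ f a + c := by
    intro a ha
    have h1 : |f a| + |g a| ≤ c := Finset.single_le_sum
      (f := fun a => |f a| + |g a|) (fun a _ => add_nonneg (abs_nonneg _) (abs_nonneg _)) ha
    have := neg_abs_le (f a)
    have := abs_nonneg (g a)
    linarith
  have hgc : ∀ a ∈ s, 0 ≤ g a + c := by
    intro a ha
    have h1 : |f a| + |g a| ≤ c := Finset.single_le_sum
      (f := fun a => |f a| + |g a|) (fun a _ => add_nonneg (abs_nonneg _) (abs_nonneg _)) ha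
    have := neg_abs_le (g a)
    have := abs_nonneg (f a)
    linarith
  have ind : ∀ (u : α → ℝ), (∀ a ∈ s, 0 ≤ u a) →
      (0 : α → ℝ) ≤ fun a => if a ∈ s then u a else 0 := by
    intro u hu a
    simp only [Pi.zero_apply]
    split_ifs with h
    · exact hu a h
    · exact le_refl _
  have h4 := four_functions_theorem (α := α) (β := ℝ)
    (fun a => if a ∈ s then μ a * (f a + c) else 0) (fun a => if a ∈ s then μ a * (g a + c) else 0)
    (fun a => if a ∈ s then μ a else 0)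
    (fun a => if a ∈ s then μ a * ((f a + c) * (g a + c)) else 0)
    (ind _ fun a ha => mul_nonneg (hμ a ha) (hfc a ha))
    (ind _ fun a ha => mul_nonneg (hμ a ha) (hgc a ha))
    (ind _ hμ)
    (ind _ fun a ha => mul_nonneg (hμ a ha) (mul_nonneg (hfc a ha) (hgc a ha)))
    (by
      intro a b
      by_cases ha : a ∈ s
      · by_cases hb : b ∈ s
        · simp only [ha, hb, hinf a ha b hb, hsup a ha b hb, if_true]
          have h1 := hl a ha b hb
          have h2 : f a + c ≤ f (a ⊔ b) + c := by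
            linarith [hf a ha _ (hsup a ha b hb) le_sup_left]
          have h3 : g b + c ≤ g (a ⊔ b) + c := by
            linarith [hg b hb _ (hsup a ha b hb) le_sup_right]
          calc μ a * (f a + c) * (μ b * (g b + c)) = (μ a * μ b) * ((f a + c) * (g b + c)) := by
                ring
            _ ≤ (μ (a ⊓ b) * μ (a ⊔ b)) * ((f (a ⊔ b) + c) * (g (a ⊔ b) + c)) :=
                mul_le_mul h1 (mul_le_mul h2 h3 (hgc b hb) (hfc _ (hsup a ha b hb)))
                  (mul_nonneg (hfc a ha) (hgc b hb))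
                  (mul_nonneg (hμ _ (hinf a ha b hb)) (hμ _ (hsup a ha b hb)))
            _ = _ := by ring
        · simp only [hb, if_false, mul_zero]
          exact mul_nonneg (ind _ hμ _)
            (ind _ (fun a ha => mul_nonneg (hμ a ha) (mul_nonneg (hfc a ha) (hgc a ha))) _)
      · simp only [ha, if_false, zero_mul]
        exact mul_nonneg (ind _ hμ _)
          (ind _ (fun a ha => mul_nonneg (hμ a ha) (mul_nonneg (hfc a ha) (hgc a ha))) _))
    s s
  have hsi : s ⊼ s ⊆ s := by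
    intro x hx
    rw [Finset.mem_infs] at hx
    obtain ⟨a, ha, b, hb, rfl⟩ := hx
    exact hinf a ha b hb
  have hss : s ⊻ s ⊆ s := by
    intro x hx
    rw [Finset.mem_sups] at hx
    obtain ⟨a, ha, b, hb, rfl⟩ := hx
    exact hsup a ha b hb
  have e0 : ∀ u : α → ℝ, ∑ a ∈ s, (if a ∈ s then u a else 0) = ∑ a ∈ s, u a := fun u =>
    Finset.sum_congr rfl fun a ha => if_pos ha
  have e1 : ∀ (u : α → ℝ) (r : Finset α), r ⊆ s → (∀ a ∈ s, 0 ≤ u a) →
      ∑ a ∈ r, (if a ∈ s then u a else 0) ≤ ∑ a ∈ s, u a := by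
    intro u r hr hu
    rw [← e0 u]
    exact Finset.sum_le_sum_of_subset_of_nonneg hr fun a _ _ => ind u hu a
  rw [e0, e0] at h4
  have h5 := h4.trans (mul_le_mul (e1 _ _ hsi hμ)
    (e1 _ _ hss fun a ha => mul_nonneg (hμ a ha) (mul_nonneg (hfc a ha) (hgc a ha)))
    (Finset.sum_nonneg fun a _ =>
      ind _ (fun a ha => mul_nonneg (hμ a ha) (mul_nonneg (hfc a ha) (hgc a ha))) _)
    (Finset.sum_nonneg hμ))
  have x1 : ∑ a ∈ s, μ a * (f a + c) = ∑ a ∈ s, μ a * f a + c * ∑ a ∈ s, μ a := by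
    rw [Finset.mul_sum, ← Finset.sum_add_distrib]
    exact Finset.sum_congr rfl fun a _ => by ring
  have x2 : ∑ a ∈ s, μ a * (g a + c) = ∑ a ∈ s, μ a * g a + c * ∑ a ∈ s, μ a := by
    rw [Finset.mul_sum, ← Finset.sum_add_distrib]
    exact Finset.sum_congr rfl fun a _ => by ring
  have x3 : ∑ a ∈ s, μ a * ((f a + c) * (g a + c)) = ∑ a ∈ s, μ a * (f a * g a) +
      c * ∑ a ∈ s, μ a * f a + c * ∑ a ∈ s, μ a * g a + c * c * ∑ a ∈ s, μ a := by
    rw [Finset.mul_sum, Finset.mul_sum, Finset.mul_sum, ← Finset.sum_add_distrib,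
      ← Finset.sum_add_distrib, ← Finset.sum_add_distrib]
    exact Finset.sum_congr rfl fun a _ => by ring
  rw [x1, x2, x3] at h5
  nlinarith [h5]

section defs

variable {V E : Type} [Fintype V] [DecidableEq V] [Fintype E] [DecidableEq E]

variable {s t : E → V} {w : E → ℤ → ℝ} {S A B P : Finset V}

omit [Fintype V] [DecidableEq E] in
/-- the lattice condition for the weights -/
lemma wt_latt (hw : ∀ e, LC (w e)) (h g : V → ℤ) :
    wt s t w S h * wt s t w S g ≤ wt s t w S (h ⊓ g) * wt s t w S (h ⊔ g) := by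
  unfold wt
  rw [← Finset.prod_mul_distrib, ← Finset.prod_mul_distrib]
  refine Finset.prod_le_prod (fun e _ => ?_) (fun e _ => ?_)
  · split_ifs
    · norm_num
    · exact mul_nonneg ((hw e).nonneg _) ((hw e).nonneg _)
  · split_ifs
    · norm_num
    · exact (hw e).latt _ _ _ _

omit [DecidableEq V] in
lemma lin_latt (ρ : V → ℝ) (h g : V → ℤ) : lin ρ h + lin ρ g = lin ρ (h ⊓ g) + lin ρ (h ⊔ g) := by
  unfold lin
  rw [← Finset.sum_add_distrib, ← Finset.sum_add_distrib]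
  refine Finset.sum_congr rfl fun v _ => ?_
  rcases le_total (h v) (g v) with h1 | h1
  · rw [Pi.inf_apply, Pi.sup_apply, inf_eq_left.2 h1, sup_eq_right.2 h1]
  · rw [Pi.inf_apply, Pi.sup_apply, inf_eq_right.2 h1, sup_eq_left.2 h1, add_comm]

omit [DecidableEq V] in
lemma lin_mono {ρ : V → ℝ} (hρ : ∀ v, 0 ≤ ρ v) {h g : V → ℤ} (hg : h ≤ g) :
    lin ρ h ≤ lin ρ g := by
  unfold lin
  refine Finset.sum_le_sum fun v _ => ?_
  refine mul_le_mul_of_nonneg_left ?_ (hρ v)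
  exact_mod_cast hg v

omit [DecidableEq E] in
/-- the lattice condition with the boundary condition `h ≤ 0` -/
lemma FF_latt' (hw : ∀ e, LC (w e)) (Q : Finset V) (ρ : V → ℝ) (h g : V → ℤ) :
    FF s t w S A Q ρ h * FF s t w S A Q ρ g ≤
      FF s t w S A Q ρ (h ⊓ g) * FF s t w S A Q ρ (h ⊔ g) := by
  classical
  by_cases h1 : ∀ v, Dd s t S A Q v → h v ≤ 0
  · by_cases h2 : ∀ v, Dd s t S A Q v → g v ≤ 0
    · have h3 : ∀ v, Dd s t S A Q v → (h ⊓ g) v ≤ 0 := fun v hv => inf_le_left.trans (h1 v hv)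
      have h4 : ∀ v, Dd s t S A Q v → (h ⊔ g) v ≤ 0 := fun v hv => sup_le (h1 v hv) (h2 v hv)
      unfold FF
      rw [if_pos h1, if_pos h2, if_pos h3, if_pos h4]
      calc wt s t w S h * Real.exp (lin ρ h) * (wt s t w S g * Real.exp (lin ρ g))
          = (wt s t w S h * wt s t w S g) * Real.exp (lin ρ h + lin ρ g) := by
            rw [Real.exp_add]; ring
        _ ≤ (wt s t w S (h ⊓ g) * wt s t w S (h ⊔ g)) * Real.exp (lin ρ h + lin ρ g) :=
            mul_le_mul_of_nonneg_right (wt_latt hw h g) (Real.exp_pos _).le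
        _ = _ := by rw [lin_latt, Real.exp_add]; ring
    · have : FF s t w S A Q ρ g = 0 := by
        unfold FF
        rw [if_neg h2]
      rw [this, mul_zero]
      exact mul_nonneg (FF_nonneg hw _ _ _) (FF_nonneg hw _ _ _)
  · have : FF s t w S A Q ρ h = 0 := by
      unfold FF
      rw [if_neg h1]
    rw [this, zero_mul]
    exact mul_nonneg (FF_nonneg hw _ _ _) (FF_nonneg hw _ _ _)

/-- the heights of the box with given values on `Q` -/
noncomputable def fb (P Q : Finset V) (M : ℕ) (h0 : V → ℤ) : Finset (V → ℤ) :=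
  (box P M).filter fun h => ∀ v ∈ Q, h v = h0 v

lemma mem_fb {Q : Finset V} {M : ℕ} {h0 h : V → ℤ} : h ∈ fb P Q M h0 ↔
    ((∀ v, |h v| ≤ M) ∧ ∀ v ∈ P, h v = 0) ∧ ∀ v ∈ Q, h v = h0 v := by
  unfold fb
  rw [Finset.mem_filter, mem_box]

lemma fb_inf {Q : Finset V} {M : ℕ} {h0 a b : V → ℤ} (ha : a ∈ fb P Q M h0)
    (hb : b ∈ fb P Q M h0) : a ⊓ b ∈ fb P Q M h0 := by
  rw [mem_fb] at ha hb ⊢
  obtain ⟨⟨a1, a2⟩, a3⟩ := ha
  obtain ⟨⟨b1, b2⟩, b3⟩ := hb
  refine ⟨⟨fun v => ?_, fun v hv => ?_⟩, fun v hv => ?_⟩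
  · rw [Pi.inf_apply]
    rcases le_total (a v) (b v) with h | h
    · rw [inf_eq_left.2 h]; exact a1 v
    · rw [inf_eq_right.2 h]; exact b1 v
  · rw [Pi.inf_apply, a2 v hv, b2 v hv, inf_idem]
  · rw [Pi.inf_apply, a3 v hv, b3 v hv, inf_idem]

lemma fb_sup {Q : Finset V} {M : ℕ} {h0 a b : V → ℤ} (ha : a ∈ fb P Q M h0)
    (hb : b ∈ fb P Q M h0) : a ⊔ b ∈ fb P Q M h0 := by
  rw [mem_fb] at ha hb ⊢
  obtain ⟨⟨a1, a2⟩, a3⟩ := ha
  obtain ⟨⟨b1, b2⟩, b3⟩ := hb
  refine ⟨⟨fun v => ?_, fun v hv => ?_⟩, fun v hv => ?_⟩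
  · rw [Pi.sup_apply]
    rcases le_total (a v) (b v) with h | h
    · rw [sup_eq_right.2 h]; exact b1 v
    · rw [sup_eq_left.2 h]; exact a1 v
  · rw [Pi.sup_apply, a2 v hv, b2 v hv, sup_idem]
  · rw [Pi.sup_apply, a3 v hv, b3 v hv, sup_idem]

lemma fb_flp {Q : Finset V} {M : ℕ} {h0 a : V → ℤ} (ha : a ∈ fb P Q M h0) :
    flp Q a ∈ fb P Q M h0 := by
  rw [mem_fb] at ha ⊢
  obtain ⟨⟨a1, a2⟩, a3⟩ := ha
  refine ⟨⟨fun v => ?_, fun v hv => ?_⟩, fun v hv => ?_⟩
  · unfold flp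
    split_ifs
    · exact a1 v
    · rw [abs_neg]; exact a1 v
  · unfold flp
    rw [a2 v hv]
    simp
  · unfold flp
    rw [if_pos hv]
    exact a3 v hv

omit [DecidableEq E] in
/-- flipping a charge outside `Q` -/
lemma fb_flip_le (hw : ∀ e, LC (w e)) {ρ₁ ρ : V → ℝ} (h1 : ∀ v, v ∉ A → ρ₁ v = 0)
    {Q : Finset V} (h2 : ∀ v ∈ Q, ρ v = 0) (h2' : ∀ v, 0 ≤ ρ v) (M : ℕ) (h0 : V → ℤ) :
    ∑ h ∈ fb P Q M h0, FF s t w S A Q ρ₁ h * Real.exp (lin ρ h) ≤
      ∑ h ∈ fb P Q M h0, FF s t w S A Q ρ₁ h * Real.exp (-lin ρ h) := by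
  refine flip_sum_le (fb P Q M h0) (flp Q) (fun a ha b hb => fb_inf ha hb)
    (fun a ha b hb => fb_sup ha hb) (fun a ha => fb_flp ha) (fun a _ => flp_flp Q a)
    (FF s t w S A Q ρ₁) (lin ρ) (FF_nonneg hw Q ρ₁) ?_ ?_ ?_
  · intro a _
    unfold lin
    rw [← Finset.sum_neg_distrib]
    refine Finset.sum_congr rfl fun v _ => ?_
    by_cases hv : v ∈ Q
    · rw [h2 v hv]; simp
    · unfold flp
      rw [if_neg hv]
      push_cast
      ring
  · intro a _ b _
    exact lin_mono h2' le_sup_left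
  · intro a ha b hb
    refine FF_latt hw h1 fun v hv => ?_
    rw [(mem_fb.1 ha).2 v hv, (mem_fb.1 hb).2 v hv]

open Classical in
omit [DecidableEq E] in
/-- comparison of sums over the explored sets -/
theorem fib_le {ρ₁ : V → ℝ} (M : ℕ) (X Y : (V → ℤ) → ℝ)
    (hXY : ∀ h0 ∈ box P M, (∀ b ∈ B, b ∉ Qs s t S A h0) →
      ∑ h ∈ fb P (Qs s t S A h0) M h0, FF s t w S A (Qs s t S A h0) ρ₁ h * X h ≤
        ∑ h ∈ fb P (Qs s t S A h0) M h0, FF s t w S A (Qs s t S A h0) ρ₁ h * Y h) :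
    ∑ h ∈ box P M, (if Jn s t S h A B then 0 else
        wt s t w S h * Real.exp (lin ρ₁ h) * X h) ≤
      ∑ h ∈ box P M, (if Jn s t S h A B then 0 else
        wt s t w S h * Real.exp (lin ρ₁ h) * Y h) := by
  set κ : (V → ℤ) → Finset V × (V → ℤ) := fun h =>
    (Qs s t S A h, fun v => if v ∈ Qs s t S A h then h v else 0) with hκ
  have hmap : ∀ h ∈ box P M, κ h ∈ (box P M).image κ := fun h hh => Finset.mem_image_of_mem _ hh
  rw [← Finset.sum_fiberwise_of_maps_to hmap, ← Finset.sum_fiberwise_of_maps_to hmap]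
  refine Finset.sum_le_sum fun k hk => ?_
  obtain ⟨h0, hh0, rfl⟩ := Finset.mem_image.1 hk
  set Q := Qs s t S A h0 with hQ
  set G : Finset (V → ℤ) := fb P Q M h0 with hG
  have hfib : ∀ h, h ∈ (box P M).filter (fun x => κ x = κ h0) ↔
      h ∈ G ∧ ∀ v, Dd s t S A Q v → h v ≤ 0 := by
    intro h
    rw [Finset.mem_filter, hG, mem_fb, ← mem_box]
    constructor
    · rintro ⟨hb, hk⟩
      simp only [hκ, Prod.mk.injEq] at hk
      obtain ⟨hk1, hk2⟩ := hk
      have hv : ∀ v ∈ Q, h v = h0 v := by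
        intro v hv
        have := congrFun hk2 v
        simp only [hk1] at this
        rw [if_pos hv, if_pos hv] at this
        exact this
      exact ⟨⟨hb, hv⟩, (Qs_eq_iff hv).1 hk1⟩
    · rintro ⟨⟨hb, hv⟩, hD⟩
      refine ⟨hb, ?_⟩
      have hk1 : Qs s t S A h = Q := (Qs_eq_iff hv).2 hD
      simp only [hκ, Prod.mk.injEq]
      refine ⟨hk1, ?_⟩
      funext v
      rw [hk1]
      by_cases hvQ : v ∈ Q
      · rw [if_pos hvQ, if_pos hvQ]; exact hv v hvQ
      · rw [if_neg hvQ, if_neg hvQ]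
  by_cases hB : ∀ b ∈ B, b ∉ Q
  · have hfil : (box P M).filter (fun x => κ x = κ h0) =
        G.filter fun h => ∀ v, Dd s t S A Q v → h v ≤ 0 := by
      ext h
      constructor
      · intro hx
        exact Finset.mem_filter.2 ((hfib h).1 hx)
      · intro hx
        exact (hfib h).2 (Finset.mem_filter.1 hx)
    have e1 : ∀ X : (V → ℤ) → ℝ, ∑ h ∈ (box P M).filter (fun x => κ x = κ h0),
        (if Jn s t S h A B then 0 else wt s t w S h * Real.exp (lin ρ₁ h) * X h) =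
        ∑ h ∈ G, FF s t w S A Q ρ₁ h * X h := by
      intro X
      rw [hfil, Finset.sum_filter]
      refine Finset.sum_congr rfl fun h hh => ?_
      unfold FF
      by_cases hD : ∀ v, Dd s t S A Q v → h v ≤ 0
      · rw [if_pos hD, if_pos hD]
        have hv : ∀ v ∈ Q, h v = h0 v := (mem_fb.1 hh).2
        have hk1 : Qs s t S A h = Q := (Qs_eq_iff hv).2 hD
        have hnJ : ¬ Jn s t S h A B := not_Jn_iff.2 (by rw [hk1]; exact hB)
        rw [if_neg hnJ]
      · rw [if_neg hD, if_neg hD, zero_mul]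
    rw [e1, e1]
    exact hXY h0 hh0 hB
  · push Not at hB
    obtain ⟨b, hb, hbQ⟩ := hB
    have e1 : ∀ X : (V → ℤ) → ℝ, ∑ h ∈ (box P M).filter (fun x => κ x = κ h0),
        (if Jn s t S h A B then 0 else wt s t w S h * Real.exp (lin ρ₁ h) * X h) = 0 := by
      intro X
      refine Finset.sum_eq_zero fun h hh => ?_
      obtain ⟨hG1, hD⟩ := (hfib h).1 hh
      have hv : ∀ v ∈ Q, h v = h0 v := (mem_fb.1 hG1).2
      have hk1 : Qs s t S A h = Q := (Qs_eq_iff hv).2 hD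
      rw [if_pos]
      by_contra hn
      exact not_Jn_iff.1 hn b hb (by rw [hk1]; exact hbQ)
    rw [e1, e1]

open Classical in
omit [DecidableEq E] in
/-- **Separation lemma**, heights with values in `[-M, M]`: if `A` and `B` are not joined in
`{h ≥ 1}`, a positive charge `ρ₂` on `B` may be flipped and a negative one `-γ` may be added. -/
theorem sep_box (hw : ∀ e, LC (w e)) {ρ₁ ρ₂ γ : V → ℝ} (h1 : ∀ v, v ∉ A → ρ₁ v = 0)
    (h2 : ∀ v, v ∉ B → ρ₂ v = 0) (h2' : ∀ v, 0 ≤ ρ₂ v) (h3 : ∀ v, v ∉ B → γ v = 0)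
    (h3' : ∀ v, 0 ≤ γ v) (M : ℕ) :
    ∑ h ∈ box P M, (if Jn s t S h A B then 0 else
        wt s t w S h * Real.exp (lin ρ₁ h + lin ρ₂ h)) ≤
      ∑ h ∈ box P M, (if Jn s t S h A B then 0 else
        wt s t w S h * Real.exp (lin ρ₁ h - lin ρ₂ h - lin γ h)) := by
  have key := fib_le (s := s) (t := t) (w := w) (S := S) (A := A) (B := B) (P := P)
    (ρ₁ := ρ₁) M (fun h => Real.exp (lin ρ₂ h)) (fun h => Real.exp (-lin ρ₂ h - lin γ h)) ?_
  · refine le_trans (le_of_eq ?_) (key.trans (le_of_eq ?_))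
    · refine Finset.sum_congr rfl fun h _ => ?_
      split_ifs
      · rfl
      · rw [Real.exp_add]; ring
    · refine Finset.sum_congr rfl fun h _ => ?_
      split_ifs
      · rfl
      · rw [mul_assoc, ← Real.exp_add]
        congr 2
        ring
  · intro h0 _ hB
    set Q := Qs s t S A h0 with hQ
    set G := fb P Q M h0 with hG
    set F := FF s t w S A Q ρ₁ with hF
    have q2 : ∀ v ∈ Q, ρ₂ v = 0 := fun v hv => h2 v fun hb => hB v hb hv
    have q3 : ∀ v ∈ Q, γ v = 0 := fun v hv => h3 v fun hb => hB v hb hv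
    have F0 : ∀ h, 0 ≤ F h := FF_nonneg hw Q ρ₁
    have s1 : ∑ h ∈ G, F h * Real.exp (lin ρ₂ h) ≤ ∑ h ∈ G, F h * Real.exp (-lin ρ₂ h) :=
      fb_flip_le hw h1 q2 h2' M h0
    have s2 : ∑ h ∈ G, F h * Real.exp (lin γ h) ≤ ∑ h ∈ G, F h * Real.exp (-lin γ h) :=
      fb_flip_le hw h1 q3 h3' M h0
    -- FKG on the fibre
    have s3 := fkg_finset G (fun a ha b hb => fb_inf ha hb) (fun a ha b hb => fb_sup ha hb)
      F (fun h => -Real.exp (-lin ρ₂ h)) (fun h => -Real.exp (-lin γ h)) (fun a _ => F0 a)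
      (fun a _ b _ => FF_latt' hw Q ρ₁ a b)
      (fun a _ b _ hab => neg_le_neg (Real.exp_le_exp.2 (neg_le_neg (lin_mono h2' hab))))
      (fun a _ b _ hab => neg_le_neg (Real.exp_le_exp.2 (neg_le_neg (lin_mono h3' hab))))
    have e1 : ∀ u : (V → ℤ) → ℝ, ∑ h ∈ G, F h * -u h = -∑ h ∈ G, F h * u h := by
      intro u
      rw [← Finset.sum_neg_distrib]
      exact Finset.sum_congr rfl fun h _ => by ring
    rw [e1, e1, neg_mul_neg] at s3
    have e2 : ∑ h ∈ G, F h * (-Real.exp (-lin ρ₂ h) * -Real.exp (-lin γ h)) =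
        ∑ h ∈ G, F h * Real.exp (-lin ρ₂ h - lin γ h) := by
      refine Finset.sum_congr rfl fun h _ => ?_
      rw [neg_mul_neg, ← Real.exp_add]
      congr 2
    rw [e2] at s3
    -- `∑ F ≤ ∑ F exp(-γ.h)`
    have s4 : ∑ h ∈ G, F h ≤ ∑ h ∈ G, F h * Real.exp (-lin γ h) := by
      have h5 : ∑ h ∈ G, F h * 2 ≤
          ∑ h ∈ G, (F h * Real.exp (lin γ h) + F h * Real.exp (-lin γ h)) := by
        refine Finset.sum_le_sum fun h _ => ?_
        rw [← mul_add]
        refine mul_le_mul_of_nonneg_left ?_ (F0 h)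
        have := Real.one_le_cosh (lin γ h)
        rw [Real.cosh_eq] at this
        linarith
      rw [Finset.sum_add_distrib, ← Finset.sum_mul] at h5
      linarith
    have hZ : 0 ≤ ∑ h ∈ G, F h := Finset.sum_nonneg fun h _ => F0 h
    have hX : 0 ≤ ∑ h ∈ G, F h * Real.exp (-lin ρ₂ h) :=
      Finset.sum_nonneg fun h _ => mul_nonneg (F0 h) (Real.exp_pos _).le
    refine s1.trans ?_
    rcases hZ.eq_or_lt with h0' | hpos
    · have hz : ∀ h ∈ G, F h = 0 :=
        (Finset.sum_eq_zero_iff_of_nonneg fun h _ => F0 h).1 h0'.symm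
      rw [Finset.sum_eq_zero fun h hh => by rw [hz h hh, zero_mul],
        Finset.sum_eq_zero fun h hh => by rw [hz h hh, zero_mul]]
    · have h6 : (∑ h ∈ G, F h) * ∑ h ∈ G, F h * Real.exp (-lin ρ₂ h) ≤
          (∑ h ∈ G, F h) * ∑ h ∈ G, F h * Real.exp (-lin ρ₂ h - lin γ h) := by
        calc (∑ h ∈ G, F h) * ∑ h ∈ G, F h * Real.exp (-lin ρ₂ h)
            ≤ (∑ h ∈ G, F h * Real.exp (-lin γ h)) * ∑ h ∈ G, F h * Real.exp (-lin ρ₂ h) :=
              mul_le_mul_of_nonneg_right s4 hX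
          _ = (∑ h ∈ G, F h * Real.exp (-lin ρ₂ h)) * ∑ h ∈ G, F h * Real.exp (-lin γ h) := by
              ring
          _ ≤ _ := s3
      exact le_of_mul_le_mul_left h6 hpos

open Classical in
omit [DecidableEq E] in
/-- **Separation lemma**, all heights which vanish on `P`. -/
theorem sep {p : (V → ℤ) → Prop} (hp : ∀ h, p h ↔ ∀ v ∈ P, h v = 0) (hw : ∀ e, LC (w e))
    {ρ₁ ρ₂ γ : V → ℝ} (h1 : ∀ v, v ∉ A → ρ₁ v = 0)
    (h2 : ∀ v, v ∉ B → ρ₂ v = 0) (h2' : ∀ v, 0 ≤ ρ₂ v) (h3 : ∀ v, v ∉ B → γ v = 0)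
    (h3' : ∀ v, 0 ≤ γ v)
    (hs : Summable fun h : {h // p h} => wt s t w S h.1 * Real.exp (lin ρ₁ h.1 + lin ρ₂ h.1))
    (hs' : Summable fun h : {h // p h} =>
      wt s t w S h.1 * Real.exp (lin ρ₁ h.1 - lin ρ₂ h.1 - lin γ h.1)) :
    ∑' h : {h // p h}, (if Jn s t S h.1 A B then 0 else
        wt s t w S h.1 * Real.exp (lin ρ₁ h.1 + lin ρ₂ h.1)) ≤
      ∑' h : {h // p h}, (if Jn s t S h.1 A B then 0 else
        wt s t w S h.1 * Real.exp (lin ρ₁ h.1 - lin ρ₂ h.1 - lin γ h.1)) := by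
  have red : ∀ f : (V → ℤ) → ℝ,
      (Summable fun h : {h // p h} => wt s t w S h.1 * Real.exp (f h.1)) →
      Summable fun h : {h // p h} => (if Jn s t S h.1 A B then 0 else
        wt s t w S h.1 * Real.exp (f h.1)) := by
    intro f hf
    refine Summable.of_nonneg_of_le (fun h => ?_) (fun h => ?_) hf
    · split_ifs
      · exact le_refl _
      · exact mul_nonneg (wt_nonneg hw h.1) (Real.exp_pos _).le
    · split_ifs
      · exact mul_nonneg (wt_nonneg hw h.1) (Real.exp_pos _).le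
      · exact le_refl _
  exact le_of_tendsto_of_tendsto'
    (tendsto_box hp (f := fun h => if Jn s t S h A B then 0 else
      wt s t w S h * Real.exp (lin ρ₁ h + lin ρ₂ h)) (red (fun h => lin ρ₁ h + lin ρ₂ h) hs))
    (tendsto_box hp (f := fun h => if Jn s t S h A B then 0 else
      wt s t w S h * Real.exp (lin ρ₁ h - lin ρ₂ h - lin γ h)) (red (fun h => lin ρ₁ h - lin ρ₂ h - lin γ h) hs'))
    (fun M => sep_box hw h1 h2 h2' h3 h3' M)

end defs

end Vale.Agent.P159.T1.H773
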